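import Vale.Agent.P097.H402.Rat.Defs

/-!
# P097 / RAT-C: Bernstein inequality for the coefficients of the pencil Hamiltonian
-/

namespace Vale.Agent.P097.H842

open Complex Metric Filter Topology Set Polynomial
open Vale.Agent.P097.TA Vale.Agent.P097.H202 Vale.Agent.P097.H402.Rat

/-- Maximum principle for a polynomial on the closed unit disc. -/
theorem poly_disc {P : ℂ[X]} {K : ℝ} (h : ∀ z : ℂ, ‖z‖ = 1 → ‖P.eval z‖ ≤ K) {z : ℂ}
    (hz : ‖z‖ ≤ 1) : ‖P.eval z‖ ≤ K := by
  refine Complex.norm_le_of_forall_mem_frontier_norm_le (U := ball (0 : ℂ) 1) isBounded_ball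
    P.differentiable.diffContOnCl (fun w hw => h w ?_) ?_
  · rw [frontier_ball (0 : ℂ) one_ne_zero] at hw
    simpa using hw
  · rw [closure_ball (0 : ℂ) one_ne_zero]
    simpa using hz

/-- Bernstein's inequality. -/
theorem poly_growth {P : ℂ[X]} {K : ℝ} {d : ℕ} (hd : P.natDegree ≤ d)
    (h : ∀ z : ℂ, ‖z‖ = 1 → ‖P.eval z‖ ≤ K) (z : ℂ) : ‖P.eval z‖ ≤ K * max 1 ‖z‖ ^ d := by
  rcases le_or_gt ‖z‖ 1 with hz | hz
  · rw [max_eq_left hz, one_pow, mul_one]
    exact poly_disc h hz
  · rw [max_eq_right hz.le]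
    have key : ∀ w : ℂ, w ≠ 0 → (reflect d P).eval w⁻¹ * w ^ d = P.eval w := by
      intro w hw
      let _ := invertibleOfNonzero hw
      have := eval₂_reflect_mul_pow (RingHom.id ℂ) w d P hd
      rw [invOf_eq_inv] at this
      simpa [Polynomial.eval₂_id] using this
    have hrefl : ∀ w : ℂ, ‖w‖ = 1 → ‖(reflect d P).eval w‖ ≤ K := by
      intro w hw
      have hw0 : w ≠ 0 := by
        intro h0
        rw [h0, norm_zero] at hw
        exact zero_ne_one hw
      have h1 := key w⁻¹ (inv_ne_zero hw0)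
      rw [inv_inv] at h1
      have h2 : ‖(reflect d P).eval w‖ = ‖P.eval w⁻¹‖ := by
        rw [← h1, norm_mul, norm_pow, norm_inv, hw]
        simp
      rw [h2]
      exact h _ (by rw [norm_inv, hw, inv_one])
    have hz0 : z ≠ 0 := by
      intro h0
      rw [h0, norm_zero] at hz
      linarith
    rw [← key z hz0, norm_mul, norm_pow]
    refine mul_le_mul_of_nonneg_right (poly_disc hrefl ?_) (by positivity)
    rw [norm_inv]
    exact inv_le_one_of_one_le₀ hz.le

/-- The Hamiltonian is bounded on a closed box around the real axis. -/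
theorem pen_bound {R : ℂ → ℂ} {δ : ℝ} {E ξ X : ℂ → ℂ → ℂ} (P : Pen R δ E ξ X) :
    ∃ M : ℝ, 0 < M ∧ ∀ (x : ℝ) (y : ℂ), ‖y‖ ≤ δ / 2 → ‖E x y‖ ≤ M := by
  have hδ := P.hδ
  have hK : IsCompact (Icc (0 : ℝ) (2 * Real.pi) ×ˢ closedBall (0 : ℂ) (δ / 2)) :=
    isCompact_Icc.prod (isCompact_closedBall _ _)
  have hcont : ContinuousOn (fun p : ℝ × ℂ => E (p.1 : ℂ) p.2)
      (Icc (0 : ℝ) (2 * Real.pi) ×ˢ closedBall (0 : ℂ) (δ / 2)) := by
    have h1 : ContinuousOn (fun p : ℂ × ℂ => E p.1 p.2) (BX δ) := P.jE.continuousOn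
    have h2 : ContinuousOn (fun p : ℝ × ℂ => ((p.1 : ℂ), p.2))
        (Icc (0 : ℝ) (2 * Real.pi) ×ˢ closedBall (0 : ℂ) (δ / 2)) :=
      (by fun_prop : Continuous fun p : ℝ × ℂ => ((p.1 : ℂ), p.2)).continuousOn
    refine h1.comp h2 fun p hp => ?_
    have h3 : ‖p.2‖ ≤ δ / 2 := by simpa using hp.2
    refine ⟨?_, ?_⟩
    · simpa using hδ
    · change ‖p.2‖ < δ
      linarith
  obtain ⟨M, hM⟩ := hK.exists_bound_of_continuousOn hcont
  refine ⟨max M 1, by positivity, fun x y hy => ?_⟩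
  -- reduction to a period
  have hper : ∀ (n : ℤ) (x : ℝ), E ((x + n * (2 * Real.pi) : ℝ) : ℂ) y = E (x : ℂ) y := by
    have hstep : ∀ x : ℝ, E ((x + 2 * Real.pi : ℝ) : ℂ) y = E (x : ℂ) y := by
      intro x
      have := P.Ep x y ⟨by simpa using hδ, by change ‖y‖ < δ; linarith⟩
      rw [← this]
      push_cast
      rfl
    intro n
    induction n using Int.induction_on with
    | zero => intro x; simp
    | succ n ih =>
      intro x
      rw [← ih x, ← hstep (x + ((n : ℤ) : ℝ) * (2 * Real.pi))]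
      congr 1
      push_cast
      ring
    | pred n ih =>
      intro x
      rw [← ih x, ← hstep (x + ((-(n : ℤ) - 1 : ℤ) : ℝ) * (2 * Real.pi))]
      congr 1
      push_cast
      ring
  obtain ⟨n, hn⟩ : ∃ n : ℤ, x + n * (2 * Real.pi) ∈ Icc (0 : ℝ) (2 * Real.pi) := by
    have hpi := Real.two_pi_pos
    refine ⟨-⌊x / (2 * Real.pi)⌋, ?_⟩
    have h1 := Int.floor_le (x / (2 * Real.pi))
    have h2 := (Int.lt_floor_add_one (x / (2 * Real.pi))).le
    rw [le_div_iff₀ hpi] at h1
    rw [div_le_iff₀ hpi] at h2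
    push_cast
    constructor <;> nlinarith
  rw [← hper n x]
  refine (hM (x + n * (2 * Real.pi), y) ⟨hn, by simpa using hy⟩).trans (le_max_left _ _)

theorem pc : PC := by
  intro R δ E ξ X N D Q P hRL hQ
  have hδ := P.hδ
  obtain ⟨M, hM0, hM⟩ := pen_bound P
  -- bound for `D` on the unit circle
  obtain ⟨B, hB⟩ := (isCompact_sphere (0 : ℂ) 1).exists_bound_of_continuousOn
    (D.continuous.continuousOn (s := sphere (0 : ℂ) 1))
  set B' := max B 1 with hB'
  have hB1 : 1 ≤ B' := le_max_right _ _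
  have hr : 0 < δ / 2 := by positivity
  -- Cauchy estimates
  have hco : ∀ (m : ℕ) (x : ℝ), ‖co E m x‖ ≤ M / (δ / 2) ^ m := by
    intro m x
    have hd : DiffContOnCl ℂ (fun y => E (x : ℂ) y) (ball 0 (δ / 2)) := by
      apply DifferentiableOn.diffContOnCl
      rw [closure_ball _ hr.ne']
      intro y hy
      have hy' : ‖y‖ ≤ δ / 2 := by simpa using hy
      have hmem : ((x : ℂ), y) ∈ BX δ := ⟨by simpa using hδ, by change ‖y‖ < δ; linarith⟩
      exact (P.dE x y hmem).differentiableAt.differentiableWithinAt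
    have h1 := Complex.norm_iteratedDeriv_le_of_forall_mem_sphere_norm_le m hr hd
      (C := M) (fun y hy => hM x y (by
        have : ‖y‖ = δ / 2 := by simpa using hy
        exact this.le))
    unfold co
    rw [norm_div, Complex.norm_natCast, div_le_iff₀ (by positivity)]
    refine h1.trans (le_of_eq ?_)
    ring
  set C := max M 1 * max (δ / 2)⁻¹ 1 * B' with hC
  have hM1 : 1 ≤ max M 1 := le_max_right _ _
  have hr1 : 1 ≤ max (δ / 2)⁻¹ 1 := le_max_right _ _
  have hC1 : 1 ≤ C := one_le_mul_of_one_le_of_one_le (one_le_mul_of_one_le_of_one_le hM1 hr1) hB1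
  refine ⟨C, by positivity, fun m => ?_⟩
  have hcirc : ∀ z : ℂ, ‖z‖ = 1 → ‖(Q m).eval z‖ ≤ C ^ m := by
    intro z hz
    rcases Nat.lt_or_ge m 3 with hm | hm
    · rw [hQ.Q2 m hm]
      simp only [eval_zero, norm_zero]
      positivity
    · have hzx : ez (z.arg : ℂ) = z := by
        unfold ez
        rw [mul_comm]
        have := Complex.norm_mul_exp_arg_mul_I z
        rw [hz] at this
        simpa using this
      have h1 := hQ.eq m z.arg
      rw [hzx] at h1
      rw [← h1, norm_mul, norm_pow]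
      have h2 : ‖D.eval z‖ ≤ B' := (hB z (by simpa using hz)).trans (le_max_left _ _)
      have h3 : ‖D.eval z‖ ^ (m - 3) ≤ B' ^ m :=
        (pow_le_pow_left₀ (norm_nonneg _) h2 _).trans (pow_le_pow_right₀ hB1 (by omega))
      have h4 : M / (δ / 2) ^ m ≤ max M 1 ^ m * max (δ / 2)⁻¹ 1 ^ m := by
        rw [div_eq_mul_inv, ← inv_pow]
        refine mul_le_mul ((le_max_left M 1).trans ?_)
          (pow_le_pow_left₀ (by positivity) (le_max_left _ _) _) (by positivity) (by positivity)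
        exact le_self_pow₀ hM1 (by omega)
      calc ‖co E m z.arg‖ * ‖D.eval z‖ ^ (m - 3)
          ≤ (max M 1 ^ m * max (δ / 2)⁻¹ 1 ^ m) * B' ^ m :=
            mul_le_mul ((hco m _).trans h4) h3 (by positivity) (by positivity)
        _ = C ^ m := by rw [hC, mul_pow, mul_pow]
  intro z
  exact poly_growth (hQ.deg m) hcirc z

end Vale.Agent.P097.H842
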